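import Crest.Agent.R166.Iface

/-!
# Row 166, block Z: deterministic part (eigenvectors of `A + e D` for distinct `e` are almost
`D`-orthogonal, so few of them correlate with a given vector)
-/

set_option autoImplicit false

open scoped BigOperators Matrix

noncomputable section

namespace Crest.Agent.R166

section
variable {V : Type} [Fintype V] [DecidableEq V] {q : ℕ}

theorem z_adj_eq (σ : Pairing V q) (x y : V) :
    adj σ x y = ∑ h : HE V q, if h.1 = x ∧ (σ h).1 = y then (1 : ℝ) else 0 := by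
  unfold adj
  rw [Fintype.sum_prod_type, Finset.sum_eq_single x]
  · simp
  · intro b _ hb; simp [hb]
  · simp

theorem z_adj_symm (σ : Pairing V q) (x y : V) : adj σ x y = adj σ y x := by
  rw [z_adj_eq, z_adj_eq]
  refine Fintype.sum_equiv σ.1 _ _ fun h => ?_
  simp only [(σ.2 h).1, and_comm]

theorem z_adj_row (σ : Pairing V q) (x : V) : ∑ y, adj σ x y = q + 1 := by
  unfold adj
  simp only [Finset.card_filter]
  push_cast
  rw [Finset.sum_comm]
  simp

theorem z_Hm_symm (s : ℝ) (c : Cfg V q) (x y : V) : Hm s c x y = Hm s c y x := by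
  unfold Hm
  simp only [Matrix.add_apply, z_adj_symm c.1 x y, Matrix.diagonal_apply]
  by_cases h : x = y
  · subst h; rfl
  · simp [h, Ne.symm h]

end

theorem z_abs_inner {V : Type} [Fintype V] {u u' : V → ℝ} {n : ℝ} (h : ∑ v, u v ^ 2 = n)
    (h' : ∑ v, u' v ^ 2 = n) : |∑ v, u v * u' v| ≤ n := by
  calc |∑ v, u v * u' v| ≤ ∑ v, |u v * u' v| := Finset.abs_sum_le_sum_abs _ _
    _ ≤ ∑ v, (u v ^ 2 + u' v ^ 2) / 2 := Finset.sum_le_sum fun v _ => by
        rw [abs_mul]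
        nlinarith [sq_nonneg (|u v| - |u' v|), sq_abs (u v), sq_abs (u' v)]
    _ = n := by rw [← Finset.sum_div, Finset.sum_add_distrib, h, h']; ring

/-- near orthogonality -/
theorem z_orth {V : Type} [Fintype V] (A : Matrix V V ℝ) (hA : ∀ x y, A x y = A y x)
    (D u u' : V → ℝ) (e e' l l' : ℝ) (h : ∀ v, (A *ᵥ u) v + e * D v * u v = l * u v)
    (h' : ∀ v, (A *ᵥ u') v + e' * D v * u' v = l' * u' v) :
    (e' - e) * ∑ v, D v * (u v * u' v) = (l' - l) * ∑ v, u v * u' v := by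
  have hs : ∑ v, (A *ᵥ u) v * u' v = ∑ v, u v * (A *ᵥ u') v := by
    simp only [Matrix.mulVec, dotProduct, Finset.sum_mul, Finset.mul_sum]
    rw [Finset.sum_comm]
    exact Finset.sum_congr rfl fun x _ => Finset.sum_congr rfl fun y _ => by rw [hA y x]; ring
  have e1 : ∀ v, (e' - e) * (D v * (u v * u' v)) =
      (l' - l) * (u v * u' v) + ((A *ᵥ u) v * u' v - u v * (A *ᵥ u') v) := fun v => by
    linear_combination u v * h' v - u' v * h v
  rw [Finset.mul_sum, Finset.mul_sum, Finset.sum_congr rfl fun v _ => e1 v, Finset.sum_add_distrib,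
    Finset.sum_sub_distrib, hs, sub_self, add_zero]

/-- few almost orthogonal vectors correlate with a given bounded vector -/
theorem z_count {V ι : Type} [Fintype V] [DecidableEq ι] (S : Finset ι) (D F : V → ℝ)
    (u : ι → V → ℝ) {n B δ τ ε : ℝ} (hn : 0 < n) (hδ : 0 < δ) (hε : 0 < ε)
    (hD0 : ∀ v, 0 ≤ D v) (hD1 : ∀ v, D v ≤ 1) (hF : ∀ v, |F v| ≤ B)
    (hu : ∀ k ∈ S, ∑ v, u k v ^ 2 = n)
    (ho : ∀ k ∈ S, ∀ l ∈ S, k ≠ l → |∑ v, D v * (u k v * u l v)| ≤ δ * n)
    (hc : ∀ k ∈ S, ε * n ≤ |∑ v, F v * u k v|)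
    (hτ : ∑ v, δ / (D v + δ) ≤ τ * n) (hB : B ^ 2 * τ ≤ ε ^ 2 / 4) : (S.card : ℝ) ≤ 1 / δ := by
  obtain ⟨c, hc1, hc2⟩ : ∃ c : ι → ℝ, (∀ k, |c k| = 1) ∧
      ∀ k, c k * ∑ v, F v * u k v = |∑ v, F v * u k v| := by
    refine ⟨fun k => if 0 ≤ ∑ v, F v * u k v then 1 else -1, fun k => ?_, fun k => ?_⟩
    · dsimp only; split_ifs <;> simp
    · dsimp only
      split_ifs with h
      · rw [abs_of_nonneg h, one_mul]
      · rw [abs_of_neg (not_le.1 h)]; ring
  obtain ⟨m, hm⟩ : ∃ m : ℝ, m = S.card := ⟨_, rfl⟩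
  rw [← hm]
  obtain ⟨U, hU⟩ : ∃ U : V → ℝ, U = fun v => ∑ k ∈ S, c k * u k v := ⟨_, rfl⟩
  have h1 : m * (ε * n) ≤ ∑ v, F v * U v := by
    have : ∑ v, F v * U v = ∑ k ∈ S, c k * ∑ v, F v * u k v := by
      simp only [hU, Finset.mul_sum]
      rw [Finset.sum_comm]
      exact Finset.sum_congr rfl fun k _ => Finset.sum_congr rfl fun v _ => by ring
    rw [this, hm, ← nsmul_eq_mul]
    exact Finset.card_nsmul_le_sum _ _ _ fun k hk => by rw [hc2]; exact hc k hk
  have hpos : ∀ v, 0 < D v + δ := fun v => by linarith [hD0 v]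
  have h2 : (∑ v, F v * U v) ^ 2 ≤ (∑ v, F v ^ 2 / (D v + δ)) * ∑ v, (D v + δ) * U v ^ 2 := by
    refine Finset.sum_sq_le_sum_mul_sum_of_sq_le_mul _ (fun v _ => ?_) (fun v _ => ?_)
      fun v _ => le_of_eq ?_
    · exact div_nonneg (sq_nonneg _) (hpos v).le
    · exact mul_nonneg (hpos v).le (sq_nonneg _)
    · have := (hpos v).ne'
      field_simp
  have h3 : δ * ∑ v, F v ^ 2 / (D v + δ) ≤ B ^ 2 * (τ * n) := by
    calc δ * ∑ v, F v ^ 2 / (D v + δ) = ∑ v, F v ^ 2 * (δ / (D v + δ)) := by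
          rw [Finset.mul_sum]; exact Finset.sum_congr rfl fun v _ => by ring
      _ ≤ ∑ v, B ^ 2 * (δ / (D v + δ)) := Finset.sum_le_sum fun v _ =>
          mul_le_mul_of_nonneg_right (by
            rw [← sq_abs]; exact pow_le_pow_left₀ (abs_nonneg _) (hF v) 2)
            (div_nonneg hδ.le (hpos v).le)
      _ ≤ B ^ 2 * (τ * n) := by
          rw [← Finset.mul_sum]; exact mul_le_mul_of_nonneg_left hτ (sq_nonneg _)
  have h4 : ∑ v, (D v + δ) * U v ^ 2 ≤ (m + 2 * δ * m ^ 2) * n := by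
    have e1 : ∑ v, (D v + δ) * U v ^ 2 = ∑ k ∈ S, ∑ l ∈ S,
        c k * c l * (∑ v, D v * (u k v * u l v) + δ * ∑ v, u k v * u l v) := by
      have e0 : ∀ v, U v ^ 2 = ∑ k ∈ S, ∑ l ∈ S, (c k * u k v) * (c l * u l v) := fun v => by
        rw [sq, hU, Finset.sum_mul_sum]
      simp only [e0, Finset.mul_sum, ← Finset.sum_add_distrib]
      rw [Finset.sum_comm]
      refine Finset.sum_congr rfl fun k _ => ?_
      rw [Finset.sum_comm]
      exact Finset.sum_congr rfl fun l _ => Finset.sum_congr rfl fun v _ => by ring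
    have e2 : ∀ k ∈ S, ∀ l ∈ S,
        c k * c l * (∑ v, D v * (u k v * u l v) + δ * ∑ v, u k v * u l v) ≤
          (if k = l then n else 0) + 2 * δ * n := by
      intro k hk l hl
      refine (le_abs_self _).trans ?_
      rw [abs_mul, abs_mul, hc1, hc1, one_mul, one_mul]
      refine (abs_add_le _ _).trans ?_
      have a1 := z_abs_inner (hu k hk) (hu l hl)
      rw [abs_mul, abs_of_pos hδ]
      have a2 := mul_le_mul_of_nonneg_left a1 hδ.le
      split_ifs with h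
      · subst h
        have a3 : |∑ v, D v * (u k v * u k v)| ≤ n := by
          rw [abs_of_nonneg (Finset.sum_nonneg fun v _ => mul_nonneg (hD0 v) (mul_self_nonneg _)),
            ← hu k hk]
          exact Finset.sum_le_sum fun v _ => by nlinarith [hD1 v, mul_self_nonneg (u k v)]
        nlinarith [mul_pos hδ hn]
      · linarith [ho k hk l hl h]
    rw [e1]
    refine (Finset.sum_le_sum fun k hk => Finset.sum_le_sum fun l hl => e2 k hk l hl).trans_eq ?_
    simp only [Finset.sum_add_distrib, Finset.sum_ite_eq, Finset.sum_const, nsmul_eq_mul]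
    rw [Finset.sum_congr rfl fun k hk => if_pos hk, Finset.sum_const, nsmul_eq_mul, ← hm]
    ring
  have hm0 : 0 ≤ m := hm ▸ Nat.cast_nonneg _
  have hX : 0 ≤ ∑ v, F v ^ 2 / (D v + δ) :=
    Finset.sum_nonneg fun v _ => div_nonneg (sq_nonneg _) (hpos v).le
  have h5 : (m * (ε * n)) ^ 2 ≤ (∑ v, F v ^ 2 / (D v + δ)) * ((m + 2 * δ * m ^ 2) * n) :=
    (pow_le_pow_left₀ (by positivity) h1 2).trans (h2.trans (mul_le_mul_of_nonneg_left h4 hX))
  have h6 : δ * (m * (ε * n)) ^ 2 ≤ ε ^ 2 / 4 * n * ((m + 2 * δ * m ^ 2) * n) := by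
    calc δ * (m * (ε * n)) ^ 2
        ≤ (δ * ∑ v, F v ^ 2 / (D v + δ)) * ((m + 2 * δ * m ^ 2) * n) := by
          rw [mul_assoc]; exact mul_le_mul_of_nonneg_left h5 hδ.le
      _ ≤ ε ^ 2 / 4 * n * ((m + 2 * δ * m ^ 2) * n) := by
          refine mul_le_mul_of_nonneg_right (h3.trans ?_) (by positivity)
          rw [← mul_assoc]; exact mul_le_mul_of_nonneg_right hB hn.le
  have h7 : (ε * n) ^ 2 * (δ * m ^ 2) ≤ (ε * n) ^ 2 * (m / 2) := by nlinarith
  have h8 : δ * m ^ 2 ≤ m / 2 := le_of_mul_le_mul_left h7 (by positivity)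
  rw [le_div_iff₀ hδ]
  rcases hm0.eq_or_lt with h | h
  · rw [← h]; simp
  · have : m * (m * δ) ≤ m * 1 := by nlinarith
    exact le_of_mul_le_mul_left this h

end Crest.Agent.R166
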