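import Crest.Agent.R166.Z.Meas
import Crest.Agent.R166.Z.Alg

/-!
# Row 166, block Z: eigenvectors are orthogonal to local functions of the environment
-/

set_option autoImplicit false

open MeasureTheory ProbabilityTheory Filter Topology
open scoped ENNReal NNReal BigOperators Matrix

noncomputable section

namespace Crest.Agent.R166

/-- reduction of a bound on configurations to a bound uniform in the pairing -/
theorem z_cfg_le {V : Type} [Fintype V] [DecidableEq V] {q : ℕ} (π : Measure II)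
    [IsProbabilityMeasure π] (S : Set (Cfg V q)) (γ : ℝ≥0∞)
    (h : ∀ σ : Pairing V q, (Measure.pi fun _ : V => π) {w | (σ, w) ∈ S} ≤ γ) :
    cfgLaw V q π S ≤ γ := by
  classical
  have hS : S = ⋃ σ ∈ (Finset.univ : Finset (Pairing V q)), {σ} ×ˢ {w | (σ, w) ∈ S} := by
    ext ⟨σ, w⟩; simp
  unfold cfgLaw
  rw [hS]
  refine (measure_biUnion_finset_le _ _).trans ?_
  calc _ ≤ ∑ σ : Pairing V q, uniformOn (Set.univ : Set (Pairing V q)) {σ} * γ :=
        Finset.sum_le_sum fun σ _ => (Measure.prod_prod_le _ _).trans (by gcongr; exact h σ)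
    _ = uniformOn (Set.univ : Set (Pairing V q)) Set.univ * γ := by
        rw [← Finset.sum_mul, sum_measure_singleton, Finset.coe_univ]
    _ ≤ 1 * γ := by
        gcongr
        unfold uniformOn
        exact prob_le_one
    _ = γ := one_mul _

theorem z_avg_he {V : Type} [Fintype V] {q : ℕ} (f : HE V q → ℝ) (u : V → ℝ) :
    (avg fun h : HE V q => f h * u h.1) =
      (∑ v, (avg fun i => f (v, i)) * u v) / Fintype.card V := by
  unfold avg
  rw [Fintype.sum_prod_type, Fintype.card_prod]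
  simp only [div_mul_eq_mul_div, Finset.sum_mul]
  rw [← Finset.sum_div, div_div]
  push_cast
  rw [mul_comm]

theorem z_abs_avg {ι : Type} [Fintype ι] [Nonempty ι] {f : ι → ℝ} {C : ℝ} (h : ∀ i, |f i| ≤ C) :
    |avg f| ≤ C := by
  unfold avg
  have : (0 : ℝ) < Fintype.card ι := by exact_mod_cast Fintype.card_pos
  rw [abs_div, abs_of_pos this, div_le_iff₀ this]
  refine (Finset.abs_sum_le_sum_abs _ _).trans ((Finset.sum_le_sum fun i _ => h i).trans_eq ?_)
  simp [mul_comm]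

theorem z_avg_sub {ι : Type} [Fintype ι] (f g : ι → ℝ) :
    avg f - avg g = avg fun i => f i - g i := by
  unfold avg
  rw [Finset.sum_sub_distrib, sub_div]

/-! ## no disorder -/

theorem stZ0 : StZ0 := by
  intro q κ s E hq hκ hE φ A ε hε
  have h1 : ∀ᶠ n : ℕ in atTop, A / n < κ :=
    (tendsto_const_div_atTop_nhds_zero_nat A).eventually (gt_mem_nhds hκ)
  refine tendsto_const_nhds.congr' ?_
  filter_upwards [h1] with n hn
  symm
  refine le_antisymm (z_cfg_le _ _ 0 fun σ => ?_) zero_le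
  have hae : ∀ᵐ w ∂(Measure.pi fun _ : Fin n => Measure.dirac II0), ∀ v, w v = II0 := by
    rw [ae_all_iff]
    intro v
    exact (Measure.quasiMeasurePreserving_eval (fun _ : Fin n => Measure.dirac II0) v).ae
      (p := fun x => x = II0) (by simp)
  refine le_of_eq (measure_mono_null ?_ hae)
  rintro w ⟨-, hw⟩ hw0
  apply hw
  intro u lam hu _ hl
  have hw1 : w = fun _ => II0 := funext hw0
  subst hw1
  have hH : Hm s ((σ, fun _ => II0) : Cfg (Fin n) q) = adj σ := by
    simp [Hm, II0]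
  rw [hH] at hu
  have hs : ((q : ℝ) + 1) * ∑ v, u v = lam * ∑ v, u v := by
    have : ∑ v, (adj σ *ᵥ u) v = lam * ∑ v, u v := by
      rw [hu, Finset.mul_sum]; rfl
    rw [← this]
    simp only [Matrix.mulVec, dotProduct]
    rw [Finset.sum_comm, Finset.mul_sum]
    refine Finset.sum_congr rfl fun y _ => ?_
    rw [← Finset.sum_mul, ← z_adj_row σ y]
    simp only [z_adj_symm σ y]
  have hlam : lam < q + 1 := by
    have h2 : 2 * √(q : ℝ) ≤ q + 1 := by
      nlinarith [sq_nonneg (√(q : ℝ) - 1), Real.sq_sqrt (Nat.cast_nonneg q : (0 : ℝ) ≤ q)]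
    unfold Bulk at hE
    linarith [le_abs_self E, le_abs_self (lam - E)]
  have h0 : ∑ v, u v = 0 := by
    by_contra h
    exact hlam.ne' (mul_right_cancel₀ h hs)
  have : (avg fun h : HE (Fin n) q =>
      φ (sview ((σ, fun _ => II0) : Cfg (Fin n) q) h) * u h.1) = 0 := by
    rw [z_avg_he (fun h => φ (sview ((σ, fun _ => II0) : Cfg (Fin n) q) h)) u]
    have : ∀ h : HE (Fin n) q, sview ((σ, fun _ => II0) : Cfg (Fin n) q) h =
        (II0, fun _ _ => II0) := fun h => rfl
    simp only [this]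
    rw [← Finset.mul_sum, h0]; simp
  rw [this]
  simpa using hε.le

/-! ## uniform disorder -/

/-- the deformation acting on star environments -/
def zTS {q : ℕ} (e : ℝ) (β : SEnv q) : SEnv q := (zT e β.1, fun k l => zT e (β.2 k l))

theorem z_unif {q : ℕ} (φ : C(SEnv q, ℝ)) {ε : ℝ} (hε : 0 < ε) :
    ∃ e₀ : ℝ, 0 < e₀ ∧ ∀ e, |e| ≤ e₀ → ∀ β, |φ (zTS e β) - φ β| ≤ ε := by
  have hc : Continuous fun p : ℝ × SEnv q => zTS p.1 p.2 := by
    unfold zTS
    refine (zT_cont.comp (f := fun p : ℝ × SEnv q => (p.1, p.2.1)) (by fun_prop)).prodMk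
      (continuous_pi fun k => continuous_pi fun l => ?_)
    exact zT_cont.comp (f := fun p : ℝ × SEnv q => (p.1, p.2.2 k l)) (by fun_prop)
  have hc2 : Continuous fun p : ℝ × SEnv q => |φ (zTS p.1 p.2) - φ p.2| :=
    ((φ.continuous.comp hc).sub (φ.continuous.comp continuous_snd)).abs
  have := isCompact_univ.eventually_forall_of_forall_eventually (x₀ := (0 : ℝ))
    (P := fun e (β : SEnv q) => |φ (zTS e β) - φ β| < ε) fun β _ =>
      hc2.continuousAt.eventually (gt_mem_nhds (by simpa [zTS, zT_zero] using hε))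
  obtain ⟨r, hr, h⟩ := Metric.eventually_nhds_iff.1 this
  refine ⟨r / 2, by positivity, fun e he β => (h ?_ β trivial).le⟩
  rw [Real.dist_eq, sub_zero]; linarith

section
variable {V : Type} [Fintype V] [DecidableEq V] {q : ℕ}

/-- the bad set of potentials -/
def zBad (σ : Pairing V q) (φ : C(SEnv q, ℝ)) (s E a ε : ℝ) : Set (V → II) :=
  {w | ∃ (u : V → ℝ) (lam : ℝ), Hm s (σ, w) *ᵥ u = lam • u ∧ ∑ v, u v ^ 2 = Fintype.card V ∧
    |lam - E| ≤ a ∧ ε ≤ |avg fun h : HE V q => φ (sview (σ, w) h) * u h.1|}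

theorem zBad_closed (σ : Pairing V q) (φ : C(SEnv q, ℝ)) (s E a ε : ℝ) :
    IsClosed (zBad σ φ s E a ε) := by
  set n : ℝ := (Fintype.card V : ℝ) with hn
  set K : Set ((V → II) × (V → ℝ) × ℝ) := {p | Hm s (σ, p.1) *ᵥ p.2.1 = p.2.2 • p.2.1 ∧
    ∑ v, p.2.1 v ^ 2 = n ∧ |p.2.2 - E| ≤ a ∧
      ε ≤ |avg fun h : HE V q => φ (sview (σ, p.1) h) * p.2.1 h.1|} with hK
  have himg : zBad σ φ s E a ε = Prod.fst '' K := by
    ext w
    constructor
    · rintro ⟨u, lam, h⟩; exact ⟨(w, u, lam), h, rfl⟩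
    · rintro ⟨⟨w, u, lam⟩, h, rfl⟩; exact ⟨u, lam, h⟩
  have hsv : ∀ h : HE V q, Continuous fun p : (V → II) × (V → ℝ) × ℝ => sview (σ, p.1) h :=
    fun h => ((continuous_apply _).comp continuous_fst).prodMk
      (continuous_pi fun k => continuous_pi fun l =>
        (continuous_apply (walk σ (σ (rot h k)) l).1).comp continuous_fst)
  have hcl : IsClosed K := by
    simp only [hK, Set.ofPred_and]
    refine (isClosed_eq ?_ ?_).inter ((isClosed_eq ?_ continuous_const).inter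
      ((isClosed_le ?_ continuous_const).inter (isClosed_le continuous_const ?_)))
    rotate_left
    · fun_prop
    · fun_prop
    · fun_prop
    rotate_left
    · refine Continuous.matrix_mulVec ?_ (by fun_prop)
      unfold Hm
      refine Continuous.add (continuous_const (y := adj σ)) (Continuous.matrix_diagonal ?_)
      fun_prop
    · unfold avg
      refine Continuous.abs (Continuous.div_const (continuous_finsetSum _ fun h _ => ?_) _)
      exact (φ.continuous.comp (hsv h)).mul (by fun_prop)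
  have hcp : IsCompact K := by
    refine (isCompact_univ.prod ((isCompact_Icc (a := fun _ : V => -(n + 1))
      (b := fun _ => n + 1)).prod (isCompact_Icc (a := E - a) (b := E + a)))).of_isClosed_subset
      hcl ?_
    rintro ⟨w, u, lam⟩ ⟨-, h2, h3, -⟩
    have h4 : ∀ v, u v ^ 2 ≤ n := fun v => by
      rw [← h2]
      exact Finset.single_le_sum (f := fun v => u v ^ 2) (fun _ _ => sq_nonneg _)
        (Finset.mem_univ v)
    have h5 := abs_le.1 h3
    refine ⟨trivial, ⟨fun v => ?_, fun v => ?_⟩, by simp only; linarith [h5.1],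
      by simp only; linarith [h5.2]⟩
    · have := h4 v; simp only; nlinarith [sq_nonneg (u v + 1)]
    · have := h4 v; simp only; nlinarith [sq_nonneg (u v - 1)]
  rw [himg]
  exact (hcp.image continuous_fst).isClosed

/-- only boundedly many deformations of a typical potential are bad -/
theorem z_pt (σ : Pairing V q) (φ : C(SEnv q, ℝ)) {s E a ε δ τ : ℝ} (hs : 0 < s) (hε : 0 < ε)
    (hδ : 0 < δ) (hτ : 0 < τ) (hn : 0 < Fintype.card V) (N : ℕ) (e : ℕ → ℝ)
    (he0 : ∀ k < N, 0 ≤ e k) (he1 : ∀ k < N, e k ≤ 1 / 2)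
    (hsep : ∀ k < N, ∀ l < N, k ≠ l → e k ≠ e l ∧ 2 * a ≤ δ * (s * |e l - e k|))
    (hφ : ∀ k < N, ∀ β, |φ (zTS (e k) β) - φ β| ≤ ε / 2) (hB : ‖φ‖ ^ 2 * τ ≤ (ε / 2) ^ 2 / 4)
    (w : V → II) :
    ∑ k ∈ Finset.range N, ((fun (w : V → II) v => zT (e k) (w v)) ⁻¹' zBad σ φ s E a ε).indicator
      (fun _ => (1 : ℝ)) w ≤
      1 / δ + N * (∑ v, δ / (1 - (w v : ℝ) ^ 2 + δ)) / (τ * Fintype.card V) := by
  classical
  have hn' : (0 : ℝ) < Fintype.card V := by exact_mod_cast hn
  have hD0 : ∀ v, 0 ≤ 1 - (w v : ℝ) ^ 2 := fun v => by nlinarith [(w v).2.1, (w v).2.2]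
  have hX : 0 ≤ ∑ v, δ / (1 - (w v : ℝ) ^ 2 + δ) :=
    Finset.sum_nonneg fun v _ => by have := hD0 v; positivity
  obtain ⟨S, hS⟩ : ∃ S : Finset ℕ, S = (Finset.range N).filter fun k =>
    (fun v => zT (e k) (w v)) ∈ zBad σ φ s E a ε := ⟨_, rfl⟩
  have hcard : ∑ k ∈ Finset.range N, ((fun (w : V → II) v => zT (e k) (w v)) ⁻¹'
      zBad σ φ s E a ε).indicator (fun _ => (1 : ℝ)) w = S.card := by
    rw [hS, Finset.card_filter]
    push_cast
    exact Finset.sum_congr rfl fun k _ => by simp only [Set.indicator, Set.mem_preimage]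
  rw [hcard]
  by_cases hc : ∑ v, δ / (1 - (w v : ℝ) ^ 2 + δ) ≤ τ * Fintype.card V
  swap
  · have h1 : (S.card : ℝ) ≤ N := by
      rw [hS]
      exact_mod_cast (Finset.card_filter_le _ _).trans_eq (Finset.card_range N)
    have h2 : (N : ℝ) ≤ N * (∑ v, δ / (1 - (w v : ℝ) ^ 2 + δ)) / (τ * Fintype.card V) := by
      rw [le_div_iff₀ (by positivity)]
      exact mul_le_mul_of_nonneg_left (not_le.1 hc).le (Nat.cast_nonneg _)
    have : 0 < 1 / δ := by positivity
    linarith
  refine le_trans ?_ (le_add_of_nonneg_right (by positivity))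
  have hmem : ∀ k ∈ S, k < N ∧ (fun v => zT (e k) (w v)) ∈ zBad σ φ s E a ε := fun k hk => by
    rw [hS, Finset.mem_filter, Finset.mem_range] at hk; exact hk
  have hch : ∀ k, ∃ (u : V → ℝ) (lam : ℝ), k ∈ S →
      Hm s (σ, fun v => zT (e k) (w v)) *ᵥ u = lam • u ∧ ∑ v, u v ^ 2 = Fintype.card V ∧
      |lam - E| ≤ a ∧
      ε ≤ |avg fun h : HE V q => φ (sview (σ, fun v => zT (e k) (w v)) h) * u h.1| := fun k => by
    by_cases hk : k ∈ S
    · obtain ⟨u, lam, h⟩ := (hmem k hk).2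
      exact ⟨u, lam, fun _ => h⟩
    · exact ⟨0, 0, fun h => absurd h hk⟩
  choose u lam hu using hch
  have heig : ∀ k ∈ S, ∀ v, (Hm s (σ, w) *ᵥ u k) v + s * e k * (1 - (w v : ℝ) ^ 2) * u k v =
      lam k * u k v := fun k hk v => by
    have h1 := congrFun (hu k hk).1 v
    have hk' := (hmem k hk).1
    simp only [Hm, Matrix.add_mulVec, Pi.add_apply, Matrix.mulVec_diagonal, Pi.smul_apply,
      smul_eq_mul, zT_coe (he0 k hk') (he1 k hk')] at h1 ⊢
    linear_combination h1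
  refine z_count S (fun v => 1 - (w v : ℝ) ^ 2) (fun v => avg fun i => φ (sview (σ, w) (v, i))) u
    hn' hδ (half_pos hε) hD0 (fun v => by nlinarith [sq_nonneg (w v : ℝ)])
    (fun v => z_abs_avg fun i => φ.norm_coe_le_norm _) (fun k hk => (hu k hk).2.1) ?_ ?_ hc hB
  · intro k hk l hl hkl
    have h1 := z_orth _ (z_Hm_symm s (σ, w)) _ _ _ _ _ _ _ (heig k hk) (heig l hl)
    obtain ⟨h2, h3⟩ := hsep k (hmem k hk).1 l (hmem l hl).1 hkl
    have h4 : 0 < s * |e l - e k| := mul_pos hs (abs_pos.2 (sub_ne_zero.2 h2.symm))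
    have h5 := congrArg abs h1
    rw [abs_mul, abs_mul, ← mul_sub, abs_mul, abs_of_pos hs] at h5
    have h6 : |lam l - lam k| ≤ 2 * a := by
      have a1 := abs_le.1 (hu k hk).2.2.1
      have a2 := abs_le.1 (hu l hl).2.2.1
      rw [abs_le]; constructor <;> linarith [a1.1, a1.2, a2.1, a2.2]
    have h7 := mul_le_mul (h6.trans h3) (z_abs_inner (hu k hk).2.1 (hu l hl).2.1) (abs_nonneg _)
      (by positivity)
    refine le_of_mul_le_mul_left ?_ h4
    rw [h5]; linarith
  · intro k hk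
    have h1 := (hu k hk).2.2.2
    rw [z_avg_he (fun h => φ (sview (σ, fun v => zT (e k) (w v)) h)) (u k), abs_div,
      abs_of_pos hn', le_div_iff₀ hn'] at h1
    have h2 : |∑ v, (avg fun i => φ (sview (σ, fun v => zT (e k) (w v)) (v, i))) * u k v -
        ∑ v, (avg fun i => φ (sview (σ, w) (v, i))) * u k v| ≤ ε / 2 * Fintype.card V := by
      rw [← Finset.sum_sub_distrib]
      refine (Finset.abs_sum_le_sum_abs _ _).trans ?_
      calc _ ≤ ∑ v, ε / 2 * ((1 + u k v ^ 2) / 2) := Finset.sum_le_sum fun v _ => by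
            rw [← sub_mul, abs_mul, z_avg_sub]
            refine mul_le_mul (z_abs_avg fun i => hφ k (hmem k hk).1 (sview (σ, w) (v, i))) ?_ (abs_nonneg _)
              (by positivity)
            nlinarith [sq_nonneg (|u k v| - 1), sq_abs (u k v)]
        _ = ε / 2 * Fintype.card V := by
            rw [← Finset.mul_sum, ← Finset.sum_div, Finset.sum_add_distrib, (hu k hk).2.1]
            simp
    have h3 := abs_sub_abs_le_abs_sub
      (∑ v, (avg fun i => φ (sview (σ, fun v => zT (e k) (w v)) (v, i))) * u k v)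
      (∑ v, (avg fun i => φ (sview (σ, w) (v, i))) * u k v)
    linarith

/-- the probability of the bad set, for a fixed pairing -/
theorem z_prob (σ : Pairing V q) (φ : C(SEnv q, ℝ)) {s E a ε δ τ K : ℝ} (hs : 0 < s) (hε : 0 < ε)
    (hδ : 0 < δ) (hτ : 0 < τ) (hK : 0 < K) (hn : 0 < Fintype.card V) {N : ℕ} (hN : 0 < N)
    (e : ℕ → ℝ) (he0 : ∀ k < N, 0 ≤ e k) (he1 : ∀ k < N, e k ≤ 1 / 2)
    (he2 : ∀ k < N, e k ^ 2 * Fintype.card V ≤ 1)
    (hsep : ∀ k < N, ∀ l < N, k ≠ l → e k ≠ e l ∧ 2 * a ≤ δ * (s * |e l - e k|))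
    (hφ : ∀ k < N, ∀ β, |φ (zTS (e k) β) - φ β| ≤ ε / 2) (hB : ‖φ‖ ^ 2 * τ ≤ (ε / 2) ^ 2 / 4) :
    (Measure.pi fun _ : V => uII).real (zBad σ φ s E a ε) ≤
      K / (N * δ) + K * (∫ w : II, δ / (1 - (w : ℝ) ^ 2 + δ) ∂uII) / τ + Real.exp 4 / K := by
  set μ := Measure.pi fun _ : V => uII with hμ
  have hn' : (0 : ℝ) < Fintype.card V := by exact_mod_cast hn
  have hN' : (0 : ℝ) < N := by exact_mod_cast hN
  have hB' := (zBad_closed σ φ s E a ε).measurableSet
  have hT : ∀ k, MeasurableSet ((fun (w : V → II) v => zT (e k) (w v)) ⁻¹' zBad σ φ s E a ε) :=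
    fun k => (measurable_pi_lambda _ fun v =>
      (zT_cont' (e k)).measurable.comp (measurable_pi_apply v)) hB'
  have hψ : Integrable (fun w : II => δ / (1 - (w : ℝ) ^ 2 + δ)) uII :=
    z_integrable (continuous_const.div (by fun_prop) fun w => by
      have : 0 ≤ 1 - (w : ℝ) ^ 2 := by nlinarith [w.2.1, w.2.2]
      positivity)
  have hψ' : ∀ v, Integrable (fun w : V → II => δ / (1 - (w v : ℝ) ^ 2 + δ)) μ := fun v =>
    integrable_comp_eval (μ := fun _ : V => uII) (i := v)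
      (f := fun w : II => δ / (1 - (w : ℝ) ^ 2 + δ)) hψ
  have h1 : ∑ k ∈ Finset.range N,
      μ.real ((fun (w : V → II) v => zT (e k) (w v)) ⁻¹' zBad σ φ s E a ε) ≤
      1 / δ + N * (∫ w : II, δ / (1 - (w : ℝ) ^ 2 + δ) ∂uII) / τ := by
    have hi : ∀ k ∈ Finset.range N, Integrable (((fun (w : V → II) v => zT (e k) (w v)) ⁻¹'
        zBad σ φ s E a ε).indicator fun _ => (1 : ℝ)) μ :=
      fun k _ => (integrable_const _).indicator (hT k)
    have hi2 := ((integrable_finsetSum Finset.univ fun v _ => hψ' v).const_mul (N : ℝ)).div_const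
      (τ * Fintype.card V)
    calc _ = ∫ w, ∑ k ∈ Finset.range N, ((fun (w : V → II) v => zT (e k) (w v)) ⁻¹'
          zBad σ φ s E a ε).indicator (fun _ => (1 : ℝ)) w ∂μ := by
          rw [integral_finsetSum _ hi]
          exact Finset.sum_congr rfl fun k _ => (integral_indicator_one (hT k)).symm
      _ ≤ ∫ w, (1 / δ + N * (∑ v, δ / (1 - (w v : ℝ) ^ 2 + δ)) / (τ * Fintype.card V)) ∂μ :=
          integral_mono (integrable_finsetSum _ hi) ((integrable_const _).add hi2)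
            (z_pt σ φ hs hε hδ hτ hn N e he0 he1 hsep hφ hB)
      _ = _ := by
          rw [integral_add (integrable_const _) hi2, integral_const, integral_div, integral_const_mul,
            integral_finsetSum _ fun v _ => hψ' v]
          have : ∀ v, ∫ w : V → II, δ / (1 - (w v : ℝ) ^ 2 + δ) ∂μ =
              ∫ w : II, δ / (1 - (w : ℝ) ^ 2 + δ) ∂uII := fun v =>
            integral_comp_eval (μ := fun _ : V => uII) (i := v)
              (f := fun w : II => δ / (1 - (w : ℝ) ^ 2 + δ)) hψ.aestronglyMeasurable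
          simp only [this, Finset.sum_const, Finset.card_univ, nsmul_eq_mul,
            probReal_univ, smul_eq_mul, one_mul]
          field_simp
  have h2 : N * μ.real (zBad σ φ s E a ε) ≤ K * ∑ k ∈ Finset.range N,
      μ.real ((fun (w : V → II) v => zT (e k) (w v)) ⁻¹' zBad σ φ s E a ε) +
        N * (Real.exp 4 / K) := by
    have := Finset.sum_le_sum fun k (hk : k ∈ Finset.range N) =>
      z_contig (he0 k (Finset.mem_range.1 hk)) (he1 k (Finset.mem_range.1 hk))
        (he2 k (Finset.mem_range.1 hk)) hK hB'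
    simpa [Finset.sum_add_distrib, Finset.mul_sum] using this
  refine le_of_mul_le_mul_left (h2.trans ?_) hN'
  have h3 := mul_le_mul_of_nonneg_left h1 hK.le
  refine (add_le_add_left h3 _).trans_eq ?_
  field_simp

end

theorem stZ1 : StZ1 := by
  intro q s E hs φ A ε hε
  rw [Whp, ENNReal.tendsto_nhds_zero]
  intro γ' hγ'
  obtain ⟨γ, hγ, hγ2⟩ : ∃ γ : ℝ, 0 < γ ∧ ENNReal.ofReal γ ≤ γ' := by
    rcases eq_or_ne γ' ⊤ with h | h
    · exact ⟨1, one_pos, h ▸ le_top⟩
    · exact ⟨γ'.toReal, ENNReal.toReal_pos hγ'.ne' h, ENNReal.ofReal_toReal_le⟩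
  obtain ⟨K, hK, hK2⟩ : ∃ K : ℝ, 0 < K ∧ Real.exp 4 / K ≤ γ / 3 :=
    ⟨3 * Real.exp 4 / γ, by positivity, le_of_eq (by field_simp)⟩
  obtain ⟨τ, hτ, hB⟩ : ∃ τ : ℝ, 0 < τ ∧ ‖φ‖ ^ 2 * τ ≤ (ε / 2) ^ 2 / 4 := by
    refine ⟨(ε / 2) ^ 2 / 4 / (‖φ‖ ^ 2 + 1), by positivity, ?_⟩
    rw [← mul_div_assoc, div_le_iff₀ (by positivity)]
    nlinarith [sq_nonneg (ε / 2)]
  obtain ⟨δ, hδ, hδ2⟩ := z_layer (γ := γ / 3 * τ / K) (by positivity)
  obtain ⟨N, hN⟩ := exists_nat_gt (3 * K / (γ * δ))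
  have hN' : (0 : ℝ) < N := lt_trans (by positivity) hN
  obtain ⟨e₀, he₀, hu⟩ := z_unif φ (half_pos hε)
  have ht : Tendsto (fun n : ℕ => (√(n : ℝ))⁻¹) atTop (𝓝 0) :=
    tendsto_inv_atTop_zero.comp (Real.tendsto_sqrt_atTop.comp tendsto_natCast_atTop_atTop)
  have ht2 : Tendsto (fun n : ℕ => 2 * A * N * (√(n : ℝ))⁻¹) atTop (𝓝 0) := by
    simpa using ht.const_mul (2 * A * N)
  filter_upwards [ht.eventually (ge_mem_nhds he₀), ht.eventually (ge_mem_nhds one_half_pos),
    ht2.eventually (ge_mem_nhds (mul_pos hδ hs)), eventually_gt_atTop 0] with n h1 h2 h3 hn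
  obtain ⟨t, ht⟩ : ∃ t : ℝ, t = (√(n : ℝ))⁻¹ := ⟨_, rfl⟩
  rw [← ht] at h1 h2 h3
  have hn' : (0 : ℝ) < n := by exact_mod_cast hn
  have ht0 : 0 < t := by rw [ht]; positivity
  have htn : t ^ 2 * n = 1 := by
    rw [ht, inv_pow, Real.sq_sqrt hn'.le]; field_simp
  have hkt : ∀ k < N, k * (t / N) ≤ t := fun k hk => by
    have : (k : ℝ) ≤ N := by exact_mod_cast hk.le
    rw [← mul_div_assoc, div_le_iff₀ hN']; nlinarith
  refine le_trans (z_cfg_le _ _ (ENNReal.ofReal γ) fun σ => ?_) hγ2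
  have hp := z_prob (E := E) (a := A / n) σ φ hs hε hδ hτ hK (by simpa using hn)
    (by exact_mod_cast hN') (fun k => k * (t / N)) (fun k _ => by positivity)
    (fun k hk => (hkt k hk).trans h2)
    (fun k hk => by
      rw [Fintype.card_fin, ← htn]
      exact mul_le_mul_of_nonneg_right (pow_le_pow_left₀ (by positivity) (hkt k hk) 2) hn'.le)
    (fun k _ l _ hkl => by
      have hkl' : (k : ℝ) ≠ l := by exact_mod_cast hkl
      refine ⟨fun h => hkl' (mul_right_cancel₀ (by positivity) h), ?_⟩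
      have h4 : (1 : ℝ) ≤ |(l : ℝ) - k| := by
        have : (1 : ℤ) ≤ |(l : ℤ) - k| := Int.one_le_abs (by omega)
        exact_mod_cast this
      have h5 : A / n = A * t ^ 2 := by rw [div_eq_iff hn'.ne', mul_assoc, htn, mul_one]
      rw [← sub_mul, abs_mul, abs_of_pos (by positivity : 0 < t / N), h5]
      calc 2 * (A * t ^ 2) = 2 * A * N * t * (t / N) := by field_simp
        _ ≤ δ * s * (t / N) := mul_le_mul_of_nonneg_right h3 (by positivity)
        _ = δ * (s * (1 * (t / N))) := by ring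
        _ ≤ _ := by gcongr)
    (fun k hk => hu _ (by rw [abs_of_nonneg (by positivity)]; exact (hkt k hk).trans h1)) hB
  have hsub : {w | (σ, w) ∈ {c : Cfg (Fin n) q | IsSimple c.1 ∧ ¬ ∀ (u : Fin n → ℝ) (lam : ℝ),
      Hm s c *ᵥ u = lam • u → ∑ v, u v ^ 2 = n → |lam - E| ≤ A / n →
      |avg fun h : HE (Fin n) q => φ (sview c h) * u h.1| ≤ ε}} ⊆ zBad σ φ s E (A / n) ε := by
    rintro w ⟨-, hw⟩
    push Not at hw
    obtain ⟨u, lam, a1, a2, a3, a4⟩ := hw
    exact ⟨u, lam, a1, by simpa using a2, a3, a4.le⟩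
  refine (measure_mono hsub).trans ?_
  rw [← ofReal_measureReal]
  refine ENNReal.ofReal_le_ofReal (hp.trans ?_)
  have b1 : K / (N * δ) ≤ γ / 3 := by
    rw [div_lt_iff₀ (by positivity)] at hN
    rw [div_le_iff₀ (by positivity)]; nlinarith
  have b2 : K * (∫ w : II, δ / (1 - (w : ℝ) ^ 2 + δ) ∂uII) / τ ≤ γ / 3 := by
    rw [le_div_iff₀ hK] at hδ2
    rw [div_le_iff₀ hτ]; linarith
  linarith

end Crest.Agent.R166
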