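import Crest.Agent.R166.Iface

/-!
# Row 166, block Z: the deformation `w ↦ w + e (1 - w²)` of the uniform law and contiguity
-/

set_option autoImplicit false

open MeasureTheory ProbabilityTheory Filter Topology
open scoped ENNReal NNReal BigOperators Matrix

noncomputable section

namespace Crest.Agent.R166

/-- projection onto `II` -/
def zP (x : ℝ) : II := Set.projIcc (-1 : ℝ) 1 (by norm_num) x

theorem zP_cont : Continuous zP := continuous_projIcc (h := by norm_num)

theorem zP_coe {x : ℝ} (hx : x ∈ Set.Icc (-1 : ℝ) 1) : (zP x : ℝ) = x := by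
  unfold zP; rw [Set.projIcc_of_mem _ hx]

/-- the deformation -/
def zT (e : ℝ) (w : II) : II := zP ((w : ℝ) + e * (1 - (w : ℝ) ^ 2))

theorem zT_cont : Continuous fun p : ℝ × II => zT p.1 p.2 := by
  unfold zT
  exact zP_cont.comp (by fun_prop)

theorem zT_cont' (e : ℝ) : Continuous (zT e) := by
  unfold zT
  exact zP_cont.comp (by fun_prop)

theorem zT_zero (w : II) : zT 0 w = w := by
  unfold zT
  apply Subtype.ext
  rw [zP_coe (by simp)]; simp

theorem z_f_mem {e x : ℝ} (h0 : 0 ≤ e) (h1 : e ≤ 1 / 2) (hx : x ∈ Set.Icc (-1 : ℝ) 1) :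
    x + e * (1 - x ^ 2) ∈ Set.Icc (-1 : ℝ) 1 := by
  obtain ⟨ha, hb⟩ := hx
  have h2 : 0 ≤ 1 - x ^ 2 := by nlinarith
  constructor
  · nlinarith [mul_nonneg h0 h2]
  · have : e * (1 - x ^ 2) ≤ 1 / 2 * (1 - x ^ 2) := mul_le_mul_of_nonneg_right h1 h2
    nlinarith [sq_nonneg (x - 1)]

theorem zT_coe {e : ℝ} (h0 : 0 ≤ e) (h1 : e ≤ 1 / 2) (w : II) :
    (zT e w : ℝ) = w + e * (1 - (w : ℝ) ^ 2) := zP_coe (z_f_mem h0 h1 w.2)

theorem z_lint_uII (g : II → ℝ≥0∞) (hg : Measurable g) :
    ∫⁻ w, g w ∂uII = 2⁻¹ * ∫⁻ x in Set.Icc (-1 : ℝ) 1, g (zP x) := by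
  unfold uII
  rw [lintegral_map hg continuous_projIcc.measurable, lintegral_smul_measure]
  simp [zP, ENNReal.smul_def]

instance z_uII_prob : IsProbabilityMeasure uII := by
  constructor
  have := z_lint_uII (fun _ => 1) measurable_const
  simp only [lintegral_const, one_mul, MeasurableSet.univ, Measure.restrict_apply, Set.univ_inter,
    Real.volume_Icc] at this
  rw [this, show (1 : ℝ) - -1 = 2 by norm_num]
  simp [ENNReal.inv_mul_cancel]

/-- the Jacobian -/
def zJ (e : ℝ) (w : II) : ℝ := 1 - 2 * e * (w : ℝ)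

theorem zJ_cont (e : ℝ) : Continuous (zJ e) := by unfold zJ; fun_prop

theorem zJ_nonneg {e : ℝ} (h0 : 0 ≤ e) (h1 : e ≤ 1 / 2) (w : II) : 0 ≤ zJ e w := by
  unfold zJ
  have := w.2.2
  nlinarith [mul_le_mul_of_nonneg_left this h0]

theorem z_cov {e : ℝ} (h0 : 0 ≤ e) (h1 : e ≤ 1 / 2) (g : II → ℝ≥0∞) (hg : Measurable g) :
    ∫⁻ w, g w ∂uII = ∫⁻ w, ENNReal.ofReal (zJ e w) * g (zT e w) ∂uII := by
  rw [z_lint_uII g hg, z_lint_uII (fun w => ENNReal.ofReal (zJ e w) * g (zT e w))
    ((zJ_cont e).measurable.ennreal_ofReal.mul (hg.comp (zT_cont' e).measurable))]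
  congr 1
  have him : (fun x : ℝ => x + e * (1 - x ^ 2)) '' Set.Icc (-1 : ℝ) 1 = Set.Icc (-1 : ℝ) 1 := by
    apply Set.Subset.antisymm
    · rintro _ ⟨x, hx, rfl⟩; exact z_f_mem h0 h1 hx
    · have := intermediate_value_Icc (f := fun x : ℝ => x + e * (1 - x ^ 2))
        (by norm_num : (-1 : ℝ) ≤ 1) (by fun_prop)
      simpa using this
  have hd : ∀ x ∈ Set.Icc (-1 : ℝ) 1, HasDerivWithinAt (fun x : ℝ => x + e * (1 - x ^ 2))
      (1 - 2 * e * x) (Set.Icc (-1 : ℝ) 1) x := fun x _ => by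
    have := (hasDerivAt_id' x).fun_add (((hasDerivAt_pow 2 x).const_sub 1).const_mul e)
    exact (this.congr_deriv (by simp; ring)).hasDerivWithinAt
  have hm : MonotoneOn (fun x : ℝ => x + e * (1 - x ^ 2)) (Set.Icc (-1 : ℝ) 1) := by
    intro x hx y hy hxy
    have h2 : e * (x + y) ≤ 1 := by nlinarith [hx.2, hy.2]
    have h3 : 0 ≤ (y - x) * (1 - e * (x + y)) := mul_nonneg (by linarith) (by linarith)
    show x + e * (1 - x ^ 2) ≤ y + e * (1 - y ^ 2)
    nlinarith
  have := lintegral_image_eq_lintegral_deriv_mul_of_monotoneOn measurableSet_Icc hd hm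
    (fun x => g (zP x))
  rw [him] at this
  rw [this]
  refine setLIntegral_congr_fun measurableSet_Icc fun x hx => ?_
  simp only [zJ, zT, zP_coe hx]

theorem z_map {e : ℝ} (h0 : 0 ≤ e) (h1 : e ≤ 1 / 2) :
    (uII.withDensity fun w => ENNReal.ofReal (zJ e w)).map (zT e) = uII := by
  ext s hs
  have hm := (zT_cont' e).measurable
  rw [Measure.map_apply hm hs, withDensity_apply _ (hm hs), ← lintegral_indicator (hm hs),
    ← lintegral_indicator_one hs, z_cov h0 h1 _ (measurable_one.indicator hs)]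
  congr 1
  funext w
  by_cases hw : zT e w ∈ s <;> simp [Set.indicator, hw]

theorem z_integrable {f : II → ℝ} (hf : Continuous f) : Integrable f uII :=
  hf.integrable_of_hasCompactSupport (HasCompactSupport.of_compactSpace _)

theorem z_int_J {e : ℝ} (h0 : 0 ≤ e) (h1 : e ≤ 1 / 2) : ∫ w, zJ e w ∂uII = 1 := by
  have h := z_cov h0 h1 (fun _ => 1) measurable_const
  simp only [lintegral_const, measure_univ, mul_one] at h
  rw [integral_eq_lintegral_of_nonneg_ae (ae_of_all _ (zJ_nonneg h0 h1))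
    (zJ_cont e).aestronglyMeasurable, ← h]
  simp

theorem z_int_J2 {e : ℝ} (h0 : 0 ≤ e) (h1 : e ≤ 1 / 2) :
    ∫ w, zJ e w ^ 2 ∂uII ≤ 1 + 4 * e ^ 2 := by
  have hi := z_integrable (zJ_cont e)
  calc ∫ w, zJ e w ^ 2 ∂uII ≤ ∫ w, (2 * zJ e w + (4 * e ^ 2 - 1)) ∂uII := by
        refine integral_mono (z_integrable ((zJ_cont e).pow 2))
          ((hi.const_mul 2).add (integrable_const _)) fun w => ?_
        have h2 : (w : ℝ) ^ 2 ≤ 1 := by nlinarith [w.2.1, w.2.2]
        simp only [zJ]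
        nlinarith [mul_le_mul_of_nonneg_left h2 (sq_nonneg e)]
    _ = 1 + 4 * e ^ 2 := by
        rw [integral_add (hi.const_mul 2) (integrable_const _), integral_const_mul, z_int_J h0 h1]
        simp; ring

theorem z_wd_apply {X : Type} [MeasurableSpace X] {m : Measure X} {f : X → ℝ}
    (hf : Integrable f m) (h0 : ∀ x, 0 ≤ f x) {s : Set X} (hs : MeasurableSet s) :
    (m.withDensity fun x => ENNReal.ofReal (f x)) s = ENNReal.ofReal (∫ x in s, f x ∂m) := by
  rw [withDensity_apply _ hs, ofReal_integral_eq_lintegral_ofReal hf.integrableOn (ae_of_all _ h0)]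

theorem z_pi_wd {κ X : Type} [Fintype κ] [MeasurableSpace X] {m : Measure X} [SigmaFinite m]
    {f : X → ℝ} (hf : Integrable f m) (h0 : ∀ x, 0 ≤ f x) :
    Measure.pi (fun _ : κ => m.withDensity fun x => ENNReal.ofReal (f x)) =
      (Measure.pi fun _ : κ => m).withDensity fun t => ENNReal.ofReal (∏ i, f (t i)) := by
  have := isFiniteMeasure_withDensity_ofReal hf.2
  refine Measure.pi_eq fun s hs => ?_
  rw [z_wd_apply (Integrable.fintype_prod (f := fun _ => f) fun _ => hf)
    (fun t => Finset.prod_nonneg fun i _ => h0 _) (MeasurableSet.univ_pi hs),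
    Measure.restrict_pi_pi, integral_fintype_prod_eq_prod (fun _ : κ => f),
    ENNReal.ofReal_prod_of_nonneg fun i _ => integral_nonneg h0]
  exact Finset.prod_congr rfl fun i _ => (z_wd_apply hf h0 (hs i)).symm

/-- contiguity of the product law and its deformation -/
theorem z_contig {V : Type} [Fintype V] {e K : ℝ} (h0 : 0 ≤ e) (h1 : e ≤ 1 / 2)
    (hn : e ^ 2 * Fintype.card V ≤ 1) (hK : 0 < K) {B : Set (V → II)} (hB : MeasurableSet B) :
    (Measure.pi fun _ : V => uII).real B ≤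
      K * (Measure.pi fun _ : V => uII).real ((fun w v => zT e (w v)) ⁻¹' B) + Real.exp 4 / K := by
  set μ := Measure.pi fun _ : V => uII with hμ
  have hi := z_integrable (zJ_cont e)
  have hi2 := z_integrable ((zJ_cont e).pow 2)
  have hfin := isFiniteMeasure_withDensity_ofReal hi.2
  have hT : Measurable fun (w : V → II) v => zT e (w v) :=
    measurable_pi_lambda _ fun v => (zT_cont' e).measurable.comp (measurable_pi_apply v)
  have hmap : μ = (μ.withDensity fun t => ENNReal.ofReal (∏ v, zJ e (t v))).map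
      fun w v => zT e (w v) := by
    rw [hμ, ← z_pi_wd hi (zJ_nonneg h0 h1),
      Measure.pi_map_pi (f := fun _ => zT e) fun _ => (zT_cont' e).measurable.aemeasurable]
    simp only [z_map h0 h1]
  have hP : Integrable (fun t : V → II => ∏ v, zJ e (t v)) μ :=
    Integrable.fintype_prod (f := fun _ => zJ e) fun _ => hi
  have hP2 : Integrable (fun t : V → II => ∏ v, zJ e (t v) ^ 2) μ :=
    Integrable.fintype_prod (f := fun _ w => zJ e w ^ 2) fun _ => hi2
  have hP0 : ∀ t : V → II, 0 ≤ ∏ v, zJ e (t v) :=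
    fun t => Finset.prod_nonneg fun v _ => zJ_nonneg h0 h1 _
  set S := (fun (w : V → II) v => zT e (w v)) ⁻¹' B with hS
  have hSm : MeasurableSet S := hT hB
  have e1 : μ.real B = ∫ t in S, ∏ v, zJ e (t v) ∂μ := by
    have : μ B = ENNReal.ofReal (∫ t in S, ∏ v, zJ e (t v) ∂μ) := by
      rw [← z_wd_apply hP hP0 hSm, ← Measure.map_apply hT hB, ← hmap]
    rw [Measure.real, this, ENNReal.toReal_ofReal (integral_nonneg hP0)]
  have e2 : ∫ t, ∏ v, zJ e (t v) ^ 2 ∂μ ≤ Real.exp 4 := by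
    rw [hμ, integral_fintype_prod_eq_pow (fun w => zJ e w ^ 2)]
    calc (∫ w, zJ e w ^ 2 ∂uII) ^ Fintype.card V ≤ (Real.exp (4 * e ^ 2)) ^ Fintype.card V := by
          refine pow_le_pow_left₀ (integral_nonneg fun w => sq_nonneg _) ?_ _
          linarith [z_int_J2 h0 h1, Real.add_one_le_exp (4 * e ^ 2)]
      _ = Real.exp (Fintype.card V * (4 * e ^ 2)) := (Real.exp_nat_mul _ _).symm
      _ ≤ Real.exp 4 := Real.exp_le_exp.2 (by nlinarith)
  calc μ.real B = ∫ t in S, ∏ v, zJ e (t v) ∂μ := e1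
    _ ≤ ∫ t in S, (K + (∏ v, zJ e (t v) ^ 2) / K) ∂μ := by
        refine integral_mono hP.integrableOn
          ((integrable_const _).add (hP2.div_const K)).integrableOn fun t => ?_
        simp only [Finset.prod_pow]
        have := hP0 t
        generalize ∏ v, zJ e (t v) = X at this
        rw [← sub_le_iff_le_add', le_div_iff₀ hK]
        nlinarith [sq_nonneg (X - K)]
    _ = K * μ.real S + (∫ t in S, ∏ v, zJ e (t v) ^ 2 ∂μ) / K := by
        rw [integral_add (integrable_const _) (hP2.div_const K).integrableOn, integral_div]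
        simp [mul_comm]
    _ ≤ K * μ.real S + Real.exp 4 / K := by
        have := setIntegral_le_integral (s := S) hP2
          (ae_of_all _ fun t => Finset.prod_nonneg fun v _ => sq_nonneg _)
        gcongr
        exact this.trans e2

/-- the boundary layer is small -/
theorem z_layer {γ : ℝ} (hγ : 0 < γ) :
    ∃ δ : ℝ, 0 < δ ∧ ∫ w : II, δ / (1 - (w : ℝ) ^ 2 + δ) ∂uII ≤ γ := by
  have hD : ∀ w : II, 0 ≤ 1 - (w : ℝ) ^ 2 := fun w => by nlinarith [w.2.1, w.2.2]
  have hae : ∀ᵐ w : II ∂uII, 0 < 1 - (w : ℝ) ^ 2 := by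
    unfold uII
    rw [ae_map_iff continuous_projIcc.measurable.aemeasurable
      (measurableSet_lt measurable_const (by fun_prop))]
    refine Measure.ae_smul_measure ?_ _
    rw [ae_restrict_iff' measurableSet_Icc]
    filter_upwards [Measure.ae_ne volume (1 : ℝ), Measure.ae_ne volume (-1 : ℝ)] with x h1 h2 hx
    rw [Set.projIcc_of_mem _ hx]
    have h3 : x < 1 := lt_of_le_of_ne hx.2 h1
    have h4 : -1 < x := lt_of_le_of_ne hx.1 (Ne.symm h2)
    show 0 < 1 - x ^ 2
    nlinarith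
  have ht : Tendsto (fun δ : ℝ => ∫ w : II, δ / (1 - (w : ℝ) ^ 2 + δ) ∂uII) (𝓝[>] 0)
      (𝓝 (∫ _w : II, (0 : ℝ) ∂uII)) := by
    refine tendsto_integral_filter_of_dominated_convergence (fun _ => 1) ?_ ?_
      (integrable_const _) ?_
    · exact Eventually.of_forall fun δ => Measurable.aestronglyMeasurable (by fun_prop)
    · filter_upwards [self_mem_nhdsWithin] with δ (hδ : 0 < δ)
      refine ae_of_all _ fun w => ?_
      have := hD w
      rw [Real.norm_of_nonneg (by positivity), div_le_one (by positivity)]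
      linarith
    · filter_upwards [hae] with w hw
      have : ContinuousAt (fun δ : ℝ => δ / (1 - (w : ℝ) ^ 2 + δ)) 0 :=
        continuousAt_id.div (by fun_prop) (by simpa using hw.ne')
      simpa using this.tendsto.mono_left nhdsWithin_le_nhds
  rw [integral_zero] at ht
  obtain ⟨δ, h1, h2⟩ := ((ht.eventually (gt_mem_nhds hγ)).and self_mem_nhdsWithin).exists
  exact ⟨δ, h2, h1.le⟩

end Crest.Agent.R166
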